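import Vale.Agent.Lib.P038.Sat.Shapes.S3_0f
noncomputable section
namespace Vale.Agent.Lib.P038.Sat.I.L1_3
open Vale.Agent.Lib.P038.Sat
def W : Nat := 21
def M : Nat := 2097151
def GT : Nat := 850336260148382376626048076072800740324438722748204027705367635270645006887418954349616892946529109380554584621460609396701509717301342913488660725252
def h0 : T := (T.l (nat_lit 0))
def H : T := h0
theorem hlast : getB H 0 = 0 := by decide +kernel
end Vale.Agent.Lib.P038.Sat.I.L1_3
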