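import Vale.Agent.Lib.P038.Sat.I.L1_3.H
noncomputable section
namespace Vale.Agent.Lib.P038.Sat.I.L1_3.S0
open Vale.Agent.Lib.P038.Sat Vale.Agent.Lib.P038.Sat.I.L1_3
def b0 : List Nat := [nat_lit 1266637395197991,nat_lit 579205142017360497,nat_lit 4036773395776421857,nat_lit 4613234156569509857,nat_lit 14183818780784965337056,nat_lit 1477786577403959,nat_lit 2308798548109836929,nat_lit 1196328780562503,nat_lit 3461438594919842449,nat_lit 1407452192964695,nat_lit 7496874984456209057,nat_lit 1125994396123239,nat_lit 1155525251321709233,nat_lit 1337117808525431,nat_lit 5190961640858075841,nat_lit 23626245622134655435952,nat_lit 8648741009540269248,nat_lit 51965632877246670193872,nat_lit 47240960269901424510176,nat_lit 56686270329720440636656,nat_lit 66132156498448172729600,nat_lit 2463086434844680]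
def p0 : List Nat := [nat_lit 4503599627378688,nat_lit 9007199254798338,nat_lit 13510798882177027,nat_lit 147582961438198620163,nat_lit 27024346543325189,nat_lit 36032645309710344,nat_lit 45040944076136458,nat_lit 54049242842415115,nat_lit 63057541608841230,nat_lit 553424841858690883589,nat_lit 72060342817120261,nat_lit 627234338900445061128,nat_lit 664145843095641079819,nat_lit 701025818794910646280,nat_lit 737905794494180212756,nat_lit 11546214268949]
def o0 : List Nat := [nat_lit 21]
theorem ok : segCheck (Gen.gen sh_3_0_f (flL1 3)) W M GT 5 0 1 H [b0] [] [p0] [o0] = true := by decide +kernel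
theorem seg {τ : Nat → Bool} (hgen : ∀ t c, Gen.gen sh_3_0_f (flL1 3) t = some c → holdsG τ c)
  (hin : ∀ g, g < 0 → HL W (loc GT τ) (getB H g)) :
  ∀ g, 0 ≤ g → g < 1 → HL W (loc GT τ) (getB H g) :=
  segCheck_sound ok hgen hin
end Vale.Agent.Lib.P038.Sat.I.L1_3.S0
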